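import Vale.Agent.P146.R2.H453.Ops

/-!
# P146: permutations of the sites, norms, and the statement of the combinatorial core
-/

open Finset

namespace Vale.Agent.P146.H453

variable {n : ℕ}

/-- action of a permutation of the sites on the pairs -/
def pf (π : Equiv.Perm (Fin n)) (e : Pair n) : Pair n :=
  if h : π e.1.1 < π e.1.2 then ⟨(π e.1.1, π e.1.2), h⟩ else
    ⟨(π e.1.2, π e.1.1), lt_of_le_of_ne (not_lt.1 h)
      (fun h' => (ne_of_lt e.2) (π.injective h'.symm))⟩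

lemma pf_mem (π : Equiv.Perm (Fin n)) {v : Fin n} {e : Pair n} (h : e ∈ st v) :
    pf π e ∈ st (π v) ∧ ot (π v) (pf π e) = π (ot v e) := by
  have h2 := e.2
  rw [mem_st] at h
  rcases h with h | h
  · have h3 : ot v e = e.1.2 := by rw [ot, if_pos h]
    rw [h3]
    unfold pf
    by_cases h1 : π e.1.1 < π e.1.2
    · rw [dif_pos h1, mem_st, ot]
      simp only
      rw [if_pos (by rw [h])]
      exact ⟨Or.inl (by rw [h]), rfl⟩
    · rw [dif_neg h1, mem_st, ot]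
      simp only
      rw [if_neg (by rw [← h]; intro h'; exact (ne_of_lt h2) (π.injective h'.symm))]
      exact ⟨Or.inr (by rw [h]), rfl⟩
  · have h3 : ot v e = e.1.1 := by
      rw [ot, if_neg (by rw [← h]; exact ne_of_lt h2)]
    rw [h3]
    unfold pf
    by_cases h1 : π e.1.1 < π e.1.2
    · rw [dif_pos h1, mem_st, ot]
      simp only
      rw [if_neg (by rw [← h]; intro h'; exact (ne_of_lt h2) (π.injective h'))]
      exact ⟨Or.inr (by rw [h]), rfl⟩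
    · rw [dif_neg h1, mem_st, ot]
      simp only
      rw [if_pos (by rw [h])]
      exact ⟨Or.inl (by rw [h]), rfl⟩

lemma exists_st (e : Pair n) : ∃ v, e ∈ st v := ⟨e.1.1, mem_st.2 (Or.inl rfl)⟩

lemma pf_pf {π ρ : Equiv.Perm (Fin n)} (h : ∀ x, ρ (π x) = x) (e : Pair n) :
    pf ρ (pf π e) = e := by
  obtain ⟨v, hv⟩ := exists_st e
  obtain ⟨h1, h2⟩ := pf_mem π hv
  obtain ⟨h3, h4⟩ := pf_mem ρ h1
  rw [h] at h3 h4
  rw [h2, h] at h4
  exact ot_inj h3 hv h4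

/-- the permutation of the pairs induced by a permutation of the sites -/
def pe (π : Equiv.Perm (Fin n)) : Equiv.Perm (Pair n) where
  toFun := pf π
  invFun := pf π.symm
  left_inv := pf_pf fun x => π.symm_apply_apply x
  right_inv := pf_pf fun x => π.apply_symm_apply x

/-- equivariance under the permutations fixing `Q` -/
def Equi (Q : Finset (Fin n)) (A : Fam n) : Prop :=
  ∀ π : Equiv.Perm (Fin n), (∀ x ∈ Q, π x = x) → ∀ v (α : MI n),
    A (π v) (fun e => α ((pe π).symm e)) = A v α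

/-- gauge parity of the coefficients of `⟨σ_v σ_j⟩`: the degree of `u` has the parity of
`[u = v] + [u = j]` -/
def Par (j : Fin n) (A : Fam n) : Prop :=
  ∀ v (α : MI n), A v α ≠ 0 →
    ∀ u, Even (deg α u + (if u = v then 1 else 0) + (if u = j then 1 else 0))

/-- `∑_{|α| ≤ L} w(α) A(v,α)²` -/
noncomputable def nv (t : ℝ) (L : ℕ) (A : Fam n) (v : Fin n) : ℝ :=
  ∑ α ∈ ML n L, wt t α * A v α ^ 2

/-- `∑_v ∑_{|α| ≤ L} w(α) A(v,α)²` -/
noncomputable def ns (t : ℝ) (L : ℕ) (A : Fam n) : ℝ := ∑ v, nv t L A v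

/-- the size of one error term -/
noncomputable def eta (n L : ℕ) : ℝ :=
  Real.sqrt ((2 * L + 5) * (L + 1) / n) + (2 * L + 6) / n

/-- Statement of the combinatorial core (proved in `H453/Core.lean` as `core`). -/
def CoreStmt : Prop :=
  ∀ (n : ℕ) (j : Fin n) (t ρ : ℝ) (L : ℕ), 0 < t → t ≤ 1 → 1 ≤ ρ →
    (n : ℝ) ≤ ρ * ((n : ℝ) - (2 * L + 2)) →
  ∀ C : ℕ → Fam n, (∀ k, C (k + 1) = up (C k) + dn (C k) - pv C k) →
    Par j (C 0) → Equi {j} (C 0) →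
  ∀ G : Fin n → Pair n → Pair n → Pair n → ℕ → Fam n,
    (∀ v e₁ e₂ e₃, G v e₁ e₂ e₃ 0 = fun i α => C 0 i (α + un e₁ + un e₂ + un e₃)) →
    (∀ v e₁ e₂ e₃ k, G v e₁ e₂ e₃ (k + 1) =
      up (G v e₁ e₂ e₃ k) + dn (G v e₁ e₂ e₃ k) - pv (G v e₁ e₂ e₃) k) →
  ∀ (B : ℝ) (BG : Fin n → Pair n → Pair n → Pair n → ℝ), 0 ≤ B → (∀ v e₁ e₂ e₃, 0 ≤ BG v e₁ e₂ e₃) →
    (∀ k ≤ L, ns t L (C k) ≤ B ^ 2) →
    (∀ v e₁ e₂ e₃, ∀ k ≤ L, ns t L (G v e₁ e₂ e₃ k) ≤ BG v e₁ e₂ e₃ ^ 2) →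
  ns t L (C 0) ≤ ∑ k ∈ range (L + 1), ρ ^ k *
    ((Real.sqrt t ^ k * Real.sqrt (nv t L (C k) j) +
        (Real.sqrt (L / n) + k * eta n L) * B) ^ 2 +
      1 / 6 * ∑ v ∈ univ.erase j, ∑ e₁ ∈ st v, ∑ e₂ ∈ st v, ∑ e₃ ∈ st v,
        (Real.sqrt t ^ k * Real.sqrt (nv t L (G v e₁ e₂ e₃ k) v) +
          (Real.sqrt (L / n) + k * eta n L) * BG v e₁ e₂ e₃) ^ 2)

end Vale.Agent.P146.H453
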