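import Vale.Agent.P146.Bdl.B19

/-!
# P146: Hermite coefficients (common definitions)
-/

open MeasureTheory ProbabilityTheory

namespace Vale.Agent.P146.R2

open Vale.Agent.P146

/-- Hermite polynomials, `he (k+2) x = x * he (k+1) x - (k+1) * he k x`. -/
noncomputable def he : ℕ → ℝ → ℝ
  | 0, _ => 1
  | 1, x => x
  | k + 2, x => x * he (k + 1) x - (k + 1) * he k x

@[simp] lemma he_zero (x : ℝ) : he 0 x = 1 := by rw [he]
@[simp] lemma he_one (x : ℝ) : he 1 x = x := by rw [he]
lemma he_succ_succ (k : ℕ) (x : ℝ) : he (k + 2) x = x * he (k + 1) x - (k + 1) * he k x := by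
  rw [he]

section defs

variable {ι : Type*} [Fintype ι]

/-- products of Hermite polynomials -/
noncomputable def heM (α : ι → ℕ) (g : ι → ℝ) : ℝ := ∏ i, he (α i) (g i)

/-- Hermite coefficients (not normalised) -/
noncomputable def co (A : (ι → ℝ) → ℝ) (α : ι → ℕ) : ℝ := ∫ g, A g * heM α g ∂(gpi ι)

/-- total degree -/
def tot (α : ι → ℕ) : ℕ := ∑ i, α i

/-- `α!` -/
def fac (α : ι → ℕ) : ℕ := ∏ i, (α i).factorial

/-- the weight `t^|α| / α!` -/
noncomputable def wgt (t : ℝ) (α : ι → ℕ) : ℝ := t ^ tot α / fac α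

variable (ι) in
/-- the multi-indices of total degree at most `L` -/
def lev [DecidableEq ι] (L : ℕ) : Finset (ι → ℕ) :=
  (Fintype.piFinset fun _ => Finset.range (L + 1)).filter fun α => tot α ≤ L

lemma le_tot (α : ι → ℕ) (i : ι) : α i ≤ tot α :=
  Finset.single_le_sum (f := fun i => α i) (fun _ _ => Nat.zero_le _) (Finset.mem_univ i)

lemma mem_lev [DecidableEq ι] {L : ℕ} {α : ι → ℕ} : α ∈ lev ι L ↔ tot α ≤ L := by
  unfold lev
  rw [Finset.mem_filter, Fintype.mem_piFinset]
  refine ⟨fun h => h.2, fun h => ⟨fun i => ?_, h⟩⟩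
  rw [Finset.mem_range]
  exact Nat.lt_succ_of_le ((le_tot α i).trans h)

lemma fac_pos (α : ι → ℕ) : 0 < fac α := Finset.prod_pos fun _ _ => Nat.factorial_pos _

lemma tot_zero : tot (0 : ι → ℕ) = 0 := by simp [tot]

lemma fac_zero : fac (0 : ι → ℕ) = 1 := by simp [fac]

lemma tot_add (α β : ι → ℕ) : tot (α + β) = tot α + tot β := by
  simp [tot, Finset.sum_add_distrib]

lemma tot_single [DecidableEq ι] (e : ι) (k : ℕ) : tot (Pi.single e k : ι → ℕ) = k := by
  simp [tot]

lemma fac_add_single [DecidableEq ι] (α : ι → ℕ) (e : ι) :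
    fac (α + Pi.single e 1) = (α e + 1) * fac α := by
  unfold fac
  rw [← Finset.mul_prod_erase Finset.univ _ (Finset.mem_univ e),
    ← Finset.mul_prod_erase Finset.univ (fun i => (α i).factorial) (Finset.mem_univ e)]
  have h : ∀ i ∈ Finset.univ.erase e, ((α + Pi.single e 1 : ι → ℕ) i).factorial =
      (α i).factorial := by
    intro i hi
    have : (Pi.single e 1 : ι → ℕ) i = 0 := Pi.single_eq_of_ne (Finset.ne_of_mem_erase hi) 1
    rw [Pi.add_apply, this, add_zero]
  rw [Finset.prod_congr rfl h]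
  simp only [Pi.add_apply, Pi.single_eq_same, Nat.factorial_succ]
  ring

lemma wgt_nonneg {t : ℝ} (ht : 0 ≤ t) (α : ι → ℕ) : 0 ≤ wgt t α := by
  unfold wgt; positivity

end defs

end Vale.Agent.P146.R2
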